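import Vale.Agent.P074.Lower

open Vale.Agent.P074 in
theorem Vale.Agent.Results.P074.OneThird.result (d : ℕ) (hd : 2 ≤ d) (α : ℝ) (hα : 0 < α) :
    Admissible d α ↔ α ≤ 1 / 3 :=
  ⟨fun h => not_lt.mp fun h' => lower hd h' h, upper (by omega) hα⟩
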